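import Mathlib
import Vale.Agent.Lib.P237.helper23.Cylinder

open MeasureTheory
open scoped ENNReal

namespace Vale.Agent.Results.P237.A_Cylinders

/-- Petty's conjectured projection-volume inequality in dimension three holds, with strict
inequality, for every right cylinder `K = B × [0, h]` over a planar convex body `B`.

Here `K` is the set of points of Euclidean three-space whose first two coordinates lie in `B`
and whose third coordinate lies in `[0, h]`.  The set `PK` is the projection body of `K`: the
set of all `x` with `⟨x, u⟩ ≤ area (proj_{u⊥} K)` for every unit vector `u`, where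
`y ↦ y - ⟨y, u⟩ u` is the orthogonal projection onto the plane orthogonal to `u` and
`Measure.euclideanHausdorffMeasure 2` is planar area (two-dimensional Hausdorff measure
normalised to agree with Lebesgue measure on planes).  This is the closed convex set whose
support function is `u ↦ area (proj_{u⊥} K)`.

The constant `π ^ 3 / (4 / 3 * π)` is `κ₂ ^ 3 * κ₃ ^ (2 - 3)` with `κ₂ = π` and
`κ₃ = 4 π / 3`, the constant of the conjecture for `n = 3`.  The second conclusion is the
stronger explicit bound `vol (ΠK) ≥ 8 vol (K) ^ 2`. -/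
theorem result (B : Set (ℝ × ℝ)) (hB : Convex ℝ B) (hBc : IsCompact B)
    (hBi : (interior B).Nonempty) (h : ℝ) (hh : 0 < h)
    (K : Set (EuclideanSpace ℝ (Fin 3)))
    (hK : K = {x | (x 0, x 1) ∈ B ∧ 0 ≤ x 2 ∧ x 2 ≤ h})
    (PK : Set (EuclideanSpace ℝ (Fin 3)))
    (hPK : PK = {x | ∀ u : EuclideanSpace ℝ (Fin 3), ‖u‖ = 1 →
      ENNReal.ofReal (inner ℝ x u) ≤
        (Measure.euclideanHausdorffMeasure 2 : Measure (EuclideanSpace ℝ (Fin 3)))
          ((fun y => y - inner ℝ y u • u) '' K)}) :
    ENNReal.ofReal (Real.pi ^ 3 / (4 / 3 * Real.pi)) * volume K ^ 2 < volume PK ∧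
      8 * volume K ^ 2 ≤ volume PK := by
  have hne : B.Nonempty := hBi.mono interior_subset
  have key := Vale.Agent.Lib.P237.helper23.petty_cyl hB hBc hne hh.le
  have hcyl : Vale.Agent.Lib.P237.helper23.cyl B h = K := by rw [hK]; rfl
  rw [hcyl] at key
  rw [← hPK] at key
  refine ⟨lt_of_lt_of_le ?_ key, key⟩
  have hvK : volume K = volume B * ENNReal.ofReal h := by
    rw [← hcyl]
    exact Vale.Agent.Lib.P237.helper23.vol_cyl B h
  have hBpos : 0 < volume B :=
    (isOpen_interior.measure_pos volume hBi).trans_le (measure_mono interior_subset)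
  have hBfin : volume B ≠ ⊤ := hBc.measure_lt_top.ne
  have hv0 : volume K ^ 2 ≠ 0 := by
    rw [hvK]
    exact pow_ne_zero 2 (mul_ne_zero hBpos.ne' (ENNReal.ofReal_pos.2 hh).ne')
  have hvt : volume K ^ 2 ≠ ⊤ := by
    rw [hvK]
    exact ENNReal.pow_ne_top (ENNReal.mul_ne_top hBfin ENNReal.ofReal_ne_top)
  have hconst : ENNReal.ofReal (Real.pi ^ 3 / (4 / 3 * Real.pi)) < 8 := by
    have h8 : (8 : ℝ≥0∞) = ENNReal.ofReal 8 := by norm_num
    rw [h8]
    refine (ENNReal.ofReal_lt_ofReal_iff (by norm_num)).2 ?_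
    have hpi := Real.pi_pos
    have hpi2 := Real.pi_lt_d2
    rw [div_lt_iff₀ (by positivity)]
    nlinarith [mul_pos hpi hpi, mul_pos (mul_pos hpi hpi) hpi]
  exact ENNReal.mul_lt_mul_left hv0 hvt hconst

end Vale.Agent.Results.P237.A_Cylinders
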